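import Vale.Agent.P069.Main

/-!
# P069: a reflexive AMUC space that is not AUC renormable
-/

open Vale.Agent.P069 in
/-- There is an infinite-dimensional reflexive real Banach space whose norm is asymptotically
midpoint uniformly convex and which has no equivalent asymptotically uniformly convex norm. -/
theorem Vale.Agent.Results.P069.ReflexiveAMUCNotAUC.result :
    ∃ (X : Type) (_ : NormedAddCommGroup X) (_ : NormedSpace ℝ X) (_ : CompleteSpace X),
      ¬ FiniteDimensional ℝ X ∧ IsReflexive X ∧ IsAMUC (fun x : X => ‖x‖) ∧
        ¬ ∃ N : X → ℝ, IsEquivalentNorm N ∧ IsAUC N :=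
  main_theorem
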